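import Mathlib

/-!
# P131: two elementary remarks on the hyperinvariant subspace problem

1. A nonscalar operator commuting with an operator `K` such that `K` or its adjoint has an
   eigenvalue of finite multiplicity has a nontrivial hyperinvariant subspace.
2. The problem is equivalent to its restriction to operators commuting with a nonzero operator of
   square zero and with a nontrivial idempotent.
-/

open scoped InnerProductSpace

namespace Vale.Agent.Results.P131.FiniteMultiplicity

section basic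

variable {H : Type*} [NormedAddCommGroup H] [InnerProductSpace ℂ H]

/-- `T` is not a scalar multiple of the identity -/
def Nonscalar (T : H →L[ℂ] H) : Prop := ∀ c : ℂ, T ≠ c • (1 : H →L[ℂ] H)

/-- `M` is invariant under every bounded operator commuting with `T` -/
def Hyperinvariant (T : H →L[ℂ] H) (M : Submodule ℂ H) : Prop :=
  ∀ A : H →L[ℂ] H, A * T = T * A → ∀ x ∈ M, A x ∈ M

/-- `T` has a nontrivial closed hyperinvariant subspace -/
def HasNHS (T : H →L[ℂ] H) : Prop :=
  ∃ M : Submodule ℂ H, IsClosed (M : Set H) ∧ M ≠ ⊥ ∧ M ≠ ⊤ ∧ Hyperinvariant T M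

/-- `c` is an eigenvalue of `K` of finite multiplicity: `ker (K - c)` is nonzero and
finite-dimensional -/
def FinMult (K : H →L[ℂ] H) (c : ℂ) : Prop :=
  LinearMap.ker ((K - c • (1 : H →L[ℂ] H)) : H →L[ℂ] H).toLinearMap ≠ ⊥ ∧
    FiniteDimensional ℂ (LinearMap.ker ((K - c • (1 : H →L[ℂ] H)) : H →L[ℂ] H).toLinearMap)

theorem hasNHS_of_eigenvector {T : H →L[ℂ] H} (hT : Nonscalar T) {c : ℂ} {x : H} (hx : x ≠ 0)
    (hTx : T x = c • x) : HasNHS T := by
  refine ⟨LinearMap.ker ((T - c • (1 : H →L[ℂ] H)) : H →L[ℂ] H).toLinearMap,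
    ContinuousLinearMap.isClosed_ker _, ?_, ?_, ?_⟩
  · intro h
    apply hx
    have : x ∈ LinearMap.ker ((T - c • (1 : H →L[ℂ] H)) : H →L[ℂ] H).toLinearMap := by
      simp [LinearMap.mem_ker, hTx]
    rw [h] at this
    simpa using this
  · intro h
    apply hT c
    ext y
    have : y ∈ LinearMap.ker ((T - c • (1 : H →L[ℂ] H)) : H →L[ℂ] H).toLinearMap := by
      rw [h]; trivial
    simp only [LinearMap.mem_ker, ContinuousLinearMap.coe_coe, sub_apply,
      smul_apply, one_apply_eq_self] at this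
    simpa [sub_eq_zero] using this
  · intro A hA y hy
    simp only [LinearMap.mem_ker, ContinuousLinearMap.coe_coe, sub_apply,
      smul_apply, one_apply_eq_self] at hy ⊢
    have h1 : T (A y) = A (T y) := by
      have := congrArg (fun B : H →L[ℂ] H => B y) hA
      simpa using this.symm
    rw [h1, sub_eq_zero.1 hy, map_smul, sub_self]

theorem hasNHS_of_finite_kernel {T K : H →L[ℂ] H} (hT : Nonscalar T) (hK : K * T = T * K) (c : ℂ)
    (h0 : LinearMap.ker ((K - c • (1 : H →L[ℂ] H)) : H →L[ℂ] H).toLinearMap ≠ ⊥)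
    (hfin : FiniteDimensional ℂ
      (LinearMap.ker ((K - c • (1 : H →L[ℂ] H)) : H →L[ℂ] H).toLinearMap)) : HasNHS T := by
  set N := LinearMap.ker ((K - c • (1 : H →L[ℂ] H)) : H →L[ℂ] H).toLinearMap with hN
  have hinv : ∀ x ∈ N, T.toLinearMap x ∈ N := by
    intro x hx
    simp only [hN, LinearMap.mem_ker, ContinuousLinearMap.coe_coe, sub_apply,
      smul_apply, one_apply_eq_self] at hx ⊢
    have h1 : K (T x) = T (K x) := by
      have := congrArg (fun B : H →L[ℂ] H => B x) hK
      simpa using this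
    rw [h1, sub_eq_zero.1 hx, map_smul, sub_self]
  have : Nontrivial N := Submodule.nontrivial_iff_ne_bot.2 h0
  obtain ⟨d, hd⟩ := Module.End.exists_eigenvalue (T.toLinearMap.restrict hinv)
  obtain ⟨v, hv⟩ := hd.exists_hasEigenvector
  have hv1 := hv.apply_eq_smul
  have hv2 : T (v : H) = d • (v : H) := by
    have := congrArg (fun z : N => (z : H)) hv1
    simpa using this
  exact hasNHS_of_eigenvector hT (fun h => hv.2 (by exact_mod_cast h)) hv2

theorem commute_adjoint [CompleteSpace H] {A T : H →L[ℂ] H} (h : A * T = T * A) :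
    ContinuousLinearMap.adjoint A * ContinuousLinearMap.adjoint T
      = ContinuousLinearMap.adjoint T * ContinuousLinearMap.adjoint A := by
  have h1 := congrArg star h
  rw [star_mul, star_mul] at h1
  simpa [ContinuousLinearMap.star_eq_adjoint] using h1.symm

theorem Nonscalar.adjoint [CompleteSpace H] {T : H →L[ℂ] H} (hT : Nonscalar T) :
    Nonscalar (ContinuousLinearMap.adjoint T) := by
  intro c hc
  apply hT (star c)
  have h1 : star (star T) = star (c • (1 : H →L[ℂ] H)) := by
    rw [ContinuousLinearMap.star_eq_adjoint T, hc]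
  rw [star_star, star_smul, star_one] at h1
  exact h1

theorem HasNHS.of_adjoint [CompleteSpace H] {T : H →L[ℂ] H}
    (h : HasNHS (ContinuousLinearMap.adjoint T)) : HasNHS T := by
  obtain ⟨M, hcl, hbot, htop, hinv⟩ := h
  refine ⟨Mᗮ, M.isClosed_orthogonal, ?_, ?_, ?_⟩
  · intro h
    apply htop
    have : CompleteSpace M := hcl.completeSpace_coe
    exact (Submodule.orthogonal_eq_bot_iff).1 h
  · intro h
    exact hbot ((Submodule.orthogonal_eq_top_iff M).1 h)
  · intro A hA x hx
    rw [Submodule.mem_orthogonal] at hx ⊢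
    intro u hu
    rw [← ContinuousLinearMap.adjoint_inner_left]
    exact hx _ (hinv (ContinuousLinearMap.adjoint A) (commute_adjoint hA) u hu)

end basic

section double

variable {H : Type*} [NormedAddCommGroup H] [InnerProductSpace ℂ H]

/-- the Hilbert space direct sum `H ⊕ H` -/
abbrev Dbl (H : Type*) : Type _ := WithLp 2 (H × H)

/-- transport of an operator on the product `H × H` to the Hilbert space direct sum -/
noncomputable def lift (B : (H × H) →L[ℂ] (H × H)) : Dbl H →L[ℂ] Dbl H :=
  ((WithLp.prodContinuousLinearEquiv 2 ℂ H H).symm : (H × H) →L[ℂ] Dbl H) ∘L B ∘L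
    ((WithLp.prodContinuousLinearEquiv 2 ℂ H H) : Dbl H →L[ℂ] (H × H))

theorem lift_apply (B : (H × H) →L[ℂ] (H × H)) (z : H × H) :
    lift B (WithLp.toLp 2 z) = WithLp.toLp 2 (B z) := rfl

theorem lift_mul (B C : (H × H) →L[ℂ] (H × H)) : lift B * lift C = lift (B * C) := by
  ext z
  simp [lift]

theorem lift_injective : Function.Injective (lift : ((H × H) →L[ℂ] (H × H)) → _) := by
  intro B C h
  apply ContinuousLinearMap.ext
  intro z
  have := congrArg (fun D : Dbl H →L[ℂ] Dbl H => WithLp.ofLp (D (WithLp.toLp 2 z))) h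
  simpa [lift_apply] using this

/-- `A ⊕ A` -/
noncomputable def dbl (A : H →L[ℂ] H) : Dbl H →L[ℂ] Dbl H := lift (A.prodMap A)

/-- the operator `(x, y) ↦ (y, 0)` -/
noncomputable def e12 : (H × H) →L[ℂ] (H × H) :=
  (ContinuousLinearMap.inl ℂ H H) ∘L (ContinuousLinearMap.snd ℂ H H)

/-- the operator `(x, y) ↦ (0, x)` -/
noncomputable def e21 : (H × H) →L[ℂ] (H × H) :=
  (ContinuousLinearMap.inr ℂ H H) ∘L (ContinuousLinearMap.fst ℂ H H)

/-- the operator `(x, y) ↦ (x, 0)` -/
noncomputable def e11 : (H × H) →L[ℂ] (H × H) :=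
  (ContinuousLinearMap.inl ℂ H H) ∘L (ContinuousLinearMap.fst ℂ H H)

theorem e12_comm (A : H →L[ℂ] H) : lift e12 * dbl A = dbl A * lift e12 := by
  rw [dbl, lift_mul, lift_mul]; congr 1; ext z <;> simp [e12]

theorem e21_comm (A : H →L[ℂ] H) : lift e21 * dbl A = dbl A * lift e21 := by
  rw [dbl, lift_mul, lift_mul]; congr 1; ext z <;> simp [e21]

theorem e11_comm (A : H →L[ℂ] H) : lift e11 * dbl A = dbl A * lift e11 := by
  rw [dbl, lift_mul, lift_mul]; congr 1; ext z <;> simp [e11]

theorem diag_comm {A S : H →L[ℂ] H} (h : S * A = A * S) : dbl S * dbl A = dbl A * dbl S := by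
  have h' : ∀ x, S (A x) = A (S x) := fun x => by
    have := congrArg (fun B : H →L[ℂ] H => B x) h
    simpa using this
  rw [dbl, dbl, lift_mul, lift_mul]; congr 1; ext z <;> simp [h']

theorem hasNHS_of_dbl {A : H →L[ℂ] H} (h : HasNHS (dbl A)) : HasNHS A := by
  obtain ⟨W, hcl, hbot, htop, hinv⟩ := h
  let j : H →L[ℂ] Dbl H :=
    ((WithLp.prodContinuousLinearEquiv 2 ℂ H H).symm : (H × H) →L[ℂ] Dbl H) ∘L
      (ContinuousLinearMap.inl ℂ H H)
  have hj : ∀ x, j x = WithLp.toLp 2 (x, 0) := fun x => rfl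
  refine ⟨W.comap j.toLinearMap, hcl.preimage j.continuous, ?_, ?_, ?_⟩
  · intro hM
    apply hbot
    rw [Submodule.eq_bot_iff]
    intro z hz
    obtain ⟨⟨u, v⟩, rfl⟩ : ∃ p : H × H, WithLp.toLp 2 p = z := ⟨WithLp.ofLp z, rfl⟩
    have h1 : WithLp.toLp 2 ((u, 0) : H × H) ∈ W := by
      have := hinv (lift e11) (e11_comm A) _ hz
      simpa [lift_apply, e11] using this
    have h2 : WithLp.toLp 2 ((v, 0) : H × H) ∈ W := by
      have := hinv (lift e12) (e12_comm A) _ hz
      simpa [lift_apply, e12] using this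
    have hu : u ∈ W.comap j.toLinearMap := h1
    have hv : v ∈ W.comap j.toLinearMap := h2
    rw [hM] at hu hv
    simp only [Submodule.mem_bot] at hu hv
    subst hu; subst hv
    rfl
  · intro hM
    apply htop
    rw [Submodule.eq_top_iff']
    intro z
    obtain ⟨⟨u, v⟩, rfl⟩ : ∃ p : H × H, WithLp.toLp 2 p = z := ⟨WithLp.ofLp z, rfl⟩
    have hall : ∀ x : H, WithLp.toLp 2 ((x, 0) : H × H) ∈ W := by
      intro x
      have : x ∈ W.comap j.toLinearMap := by rw [hM]; trivial
      exact this
    have h2 : WithLp.toLp 2 ((0, v) : H × H) ∈ W := by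
      have := hinv (lift e21) (e21_comm A) _ (hall v)
      simpa [lift_apply, e21] using this
    have h3 := W.add_mem (hall u) h2
    have e : WithLp.toLp 2 ((u, 0) : H × H) + WithLp.toLp 2 ((0, v) : H × H)
        = WithLp.toLp 2 ((u, v) : H × H) := by
      rw [← WithLp.toLp_add]; simp
    rwa [e] at h3
  · intro S hS x hx
    have := hinv (dbl S) (diag_comm hS) _ hx
    have e : dbl S (j x) = j (S x) := by
      rw [hj, hj, dbl, lift_apply]; simp
    change j (S x) ∈ W
    rw [← e]
    exact this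

theorem Nonscalar.dbl {A : H →L[ℂ] H} (hA : Nonscalar A) : Nonscalar (dbl A) := by
  intro c hc
  apply hA c
  ext x
  have := congrArg (fun D : Dbl H →L[ℂ] Dbl H => (D (WithLp.toLp 2 ((x, 0) : H × H))).fst) hc
  simpa [FiniteMultiplicity.dbl, lift_apply] using this

theorem lift_zero : lift (0 : (H × H) →L[ℂ] (H × H)) = 0 := by
  ext z
  simp [lift]

theorem e12_sq : lift (e12 : (H × H) →L[ℂ] (H × H)) * lift e12 = 0 := by
  rw [lift_mul, ← lift_zero]; congr 1

theorem e11_sq : lift (e11 : (H × H) →L[ℂ] (H × H)) * lift e11 = lift e11 := by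
  rw [lift_mul]; congr 1

theorem e12_ne {x : H} (hx : x ≠ 0) : lift (e12 : (H × H) →L[ℂ] (H × H)) ≠ 0 := by
  intro h
  apply hx
  have := congrArg (fun D : Dbl H →L[ℂ] Dbl H => (D (WithLp.toLp 2 ((0, x) : H × H))).fst) h
  simpa [lift_apply, e12] using this

theorem e11_ne_zero {x : H} (hx : x ≠ 0) : lift (e11 : (H × H) →L[ℂ] (H × H)) ≠ 0 := by
  intro h
  apply hx
  have := congrArg (fun D : Dbl H →L[ℂ] Dbl H => (D (WithLp.toLp 2 ((x, 0) : H × H))).fst) h
  simpa [lift_apply, e11] using this

theorem e11_ne_one {x : H} (hx : x ≠ 0) : lift (e11 : (H × H) →L[ℂ] (H × H)) ≠ 1 := by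
  intro h
  apply hx
  have := congrArg (fun D : Dbl H →L[ℂ] Dbl H => (D (WithLp.toLp 2 ((0, x) : H × H))).snd) h
  simpa [lift_apply, e11] using this.symm

theorem e11_adjoint [CompleteSpace H] :
    ContinuousLinearMap.adjoint (lift (e11 : (H × H) →L[ℂ] (H × H))) = lift e11 := by
  symm
  rw [ContinuousLinearMap.eq_adjoint_iff]
  intro x y
  obtain ⟨⟨u, v⟩, rfl⟩ : ∃ p : H × H, WithLp.toLp 2 p = x := ⟨WithLp.ofLp x, rfl⟩
  obtain ⟨⟨u', v'⟩, rfl⟩ : ∃ p : H × H, WithLp.toLp 2 p = y := ⟨WithLp.ofLp y, rfl⟩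
  simp [lift_apply, e11]

theorem separable_dbl [TopologicalSpace.SeparableSpace H] :
    TopologicalSpace.SeparableSpace (Dbl H) :=
  (WithLp.prodContinuousLinearEquiv 2 ℂ H H).symm.surjective.denseRange.separableSpace
    (WithLp.prodContinuousLinearEquiv 2 ℂ H H).symm.continuous

theorem infinite_dbl (h : ¬ FiniteDimensional ℂ H) : ¬ FiniteDimensional ℂ (Dbl H) := by
  intro hf
  apply h
  let j : H →ₗ[ℂ] Dbl H :=
    ((WithLp.prodContinuousLinearEquiv 2 ℂ H H).symm : (H × H) →L[ℂ] Dbl H).toLinearMap ∘ₗ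
      (LinearMap.inl ℂ H H)
  have hj : Function.Injective j := by
    intro x y hxy
    have := congrArg (fun z : Dbl H => z.fst) hxy
    simpa [j] using this
  exact FiniteDimensional.of_injective j hj

end double

/-- Question Q1 of the problem: every nonscalar bounded operator on a separable
infinite-dimensional complex Hilbert space has a nontrivial closed hyperinvariant subspace. -/
def Q1 : Prop :=
  ∀ (H : Type) [NormedAddCommGroup H] [InnerProductSpace ℂ H] [CompleteSpace H]
    [TopologicalSpace.SeparableSpace H], ¬ FiniteDimensional ℂ H →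
    ∀ T : H →L[ℂ] H, Nonscalar T → HasNHS T

/-- Q1 restricted to the operators that commute with a nonzero operator of square zero and with
an orthogonal projection different from `0` and `1`. -/
def Q1Restricted : Prop :=
  ∀ (H : Type) [NormedAddCommGroup H] [InnerProductSpace ℂ H] [CompleteSpace H]
    [TopologicalSpace.SeparableSpace H], ¬ FiniteDimensional ℂ H →
    ∀ T : H →L[ℂ] H, Nonscalar T →
      (∃ N : H →L[ℂ] H, N ≠ 0 ∧ N * N = 0 ∧ N * T = T * N) →
      (∃ P : H →L[ℂ] H, P * P = P ∧ ContinuousLinearMap.adjoint P = P ∧ P ≠ 0 ∧ P ≠ 1 ∧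
        P * T = T * P) → HasNHS T

theorem q1_iff : Q1 ↔ Q1Restricted := by
  constructor
  · intro h H _ _ _ _ hinf T hT _ _
    exact h H hinf T hT
  · intro h H _ _ _ _ hinf A hA
    have hnt : ∃ x : H, x ≠ 0 := by
      by_contra hcon
      apply hinf
      have hsub : Subsingleton H := ⟨fun a b => by
        have ha : a = 0 := by by_contra h1; exact hcon ⟨a, h1⟩
        have hb : b = 0 := by by_contra h1; exact hcon ⟨b, h1⟩
        rw [ha, hb]⟩
      infer_instance
    obtain ⟨x, hx⟩ := hnt
    have := separable_dbl (H := H)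
    exact hasNHS_of_dbl (h (Dbl H) (infinite_dbl hinf) (dbl A) hA.dbl
      ⟨lift e12, e12_ne hx, e12_sq, e12_comm A⟩
      ⟨lift e11, e11_sq, e11_adjoint, e11_ne_zero hx, e11_ne_one hx, e11_comm A⟩)

/-- **Result.**
(1) Let `T` be a nonscalar bounded operator on a complex Hilbert space that commutes with a bounded
operator `K` such that, for some `c`, the eigenspace `ker (K - c)` or the eigenspace
`ker (K^* - c)` is nonzero and finite-dimensional.  Then `T` has a nontrivial closed
hyperinvariant subspace.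
(2) Q1 is equivalent to its restriction to the operators commuting with a nonzero operator of
square zero and with a nontrivial orthogonal projection. -/
theorem result :
    (∀ (H : Type) [NormedAddCommGroup H] [InnerProductSpace ℂ H] [CompleteSpace H]
      (T K : H →L[ℂ] H) (c : ℂ), Nonscalar T → K * T = T * K →
      FinMult K c ∨ FinMult (ContinuousLinearMap.adjoint K) c → HasNHS T) ∧
    (Q1 ↔ Q1Restricted) := by
  refine ⟨?_, q1_iff⟩
  intro H _ _ _ T K c hT hK h
  rcases h with ⟨h0, hf⟩ | ⟨h0, hf⟩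
  · exact hasNHS_of_finite_kernel hT hK c h0 hf
  · exact HasNHS.of_adjoint (hasNHS_of_finite_kernel hT.adjoint (commute_adjoint hK) c h0 hf)

end Vale.Agent.Results.P131.FiniteMultiplicity
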